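import Mathlib
import Vale.Agent.Lib.P100.Plane
import Vale.Agent.Lib.P100.Singular

namespace Vale.Agent.Results.P100.PlanarOrSingularWeight

open InnerProductSpace Laplacian Vale.Agent.Lib.P100

/-- The Hénon–Lane–Emden system `-Δu = |x|^A v^p`, `-Δv = |x|^B u^q` on `ℝ^n \ {0}` has no positive
entire solution (`u, v` of class `C^2` off the origin, continuous and positive on all of `ℝ^n`)
whenever `n = 2`, or `A ≤ -2`, or `B ≤ -2`; here `n ≥ 2`, `p, q > 0` and `A, B` are real. -/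
theorem result (n : ℕ) (hn : 2 ≤ n) (p q A B : ℝ) (hp : 0 < p) (hq : 0 < q)
    (h : n = 2 ∨ A ≤ -2 ∨ B ≤ -2) :
    ¬ ∃ u v : EuclideanSpace ℝ (Fin n) → ℝ,
      ContDiffOn ℝ 2 u {0}ᶜ ∧ ContDiffOn ℝ 2 v {0}ᶜ ∧ Continuous u ∧ Continuous v ∧
      (∀ x, 0 < u x) ∧ (∀ x, 0 < v x) ∧
      (∀ x, x ≠ 0 → -(Δ u x) = ‖x‖ ^ A * (v x) ^ p) ∧
      (∀ x, x ≠ 0 → -(Δ v x) = ‖x‖ ^ B * (u x) ^ q) := by
  rintro ⟨u, v, hu2, hv2, huc, hvc, hupos, hvpos, h1, h2⟩
  have hcard : Fintype.card (Fin n) = n := Fintype.card_fin n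
  by_cases hn2 : n = 2
  · -- planar case: `u` is positive and strictly superharmonic off the origin
    refine no_pos_superharmonic_plane (EuclideanSpace.basisFun (Fin n) ℝ) (by rw [hcard, hn2])
      huc hupos hu2 ?_
    intro x hx
    have hxpos : 0 < ‖x‖ := norm_pos_iff.mpr hx
    have hpos : 0 < ‖x‖ ^ A * (v x) ^ p :=
      mul_pos (Real.rpow_pos_of_pos hxpos A) (Real.rpow_pos_of_pos (hvpos x) p)
    have := h1 x hx
    linarith
  · have hn3 : 3 ≤ Fintype.card (Fin n) := by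
      rw [hcard]
      omega
    rcases h with h | h | h
    · exact hn2 h
    · exact no_sol_singular (EuclideanSpace.basisFun (Fin n) ℝ) hn3 h hp.le huc hvc (hvpos 0) hu2 h1
    · exact no_sol_singular (EuclideanSpace.basisFun (Fin n) ℝ) hn3 h hq.le hvc huc (hupos 0) hv2 h2

end Vale.Agent.Results.P100.PlanarOrSingularWeight
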